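import Vale.Agent.Lib.P034.Cluster

/-!
P034, a new special case of Talagrand's conjecture with an explicit constant.

Let `L` be a family of subsets of `X` that is closed under unions of intersecting pairs and has
at most `B ^ m` members of size `m` through each point.  If a fractional cover `g` of `F` is
positive only on members of `L` and has cost at most `1/2` at `p`, then `F` is `p / (6 B)`-small.
-/

namespace Vale.Agent.Results.P034.ClusterRounding

open Vale.Agent.Lib.P034

theorem result {X : Type*} [Fintype X] [DecidableEq X]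
    (F L : Finset (Finset X)) (B : ℝ) (hB : 0 < B)
    (hunion : ∀ R ∈ L, ∀ R' ∈ L, (R ∩ R').Nonempty → R ∪ R' ∈ L)
    (hgrowth : ∀ (x : X) (m : ℕ),
      ((L.filter (fun R => x ∈ R ∧ R.card = m)).card : ℝ) ≤ B ^ m)
    (g : Finset X → ℝ) (hg : IsFracCover g F)
    (hsupp : ∀ S, g S ≠ 0 → S ∈ L)
    (p : ℝ) (hp0 : 0 ≤ p) (hp1 : p ≤ 1) (hcost : fracCost g p ≤ 1 / 2) :
    IsSmall F (p / (6 * B)) :=
  cluster_main F L B hB hunion hgrowth g hg hsupp p hp0 hp1 hcost

end Vale.Agent.Results.P034.ClusterRounding
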