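import Vale.Agent.Lib.P034.Containment

/-!
P034, Talagrand's conjecture for subgraph containment.  Let `F` be the increasing family of the
graphs on `Fin n` (as sets of pairs) that contain a copy of a given graph `H` on at most `n`
vertices.  If some fractional cover of `F` has cost at most `1/2` at `p`, then `F` is
`p / 1030000`-small when `H` is a forest, and `p / (324 D)`-small when `H` has maximum degree at
most `D`.
-/

open SimpleGraph

namespace Vale.Agent.Results.P034.GraphContainment

open Vale.Agent.Lib.P034

theorem result (n : ℕ) {V : Type*} [Fintype V] (H : SimpleGraph V) (hV : Fintype.card V ≤ n)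
    (g : Finset {e : Sym2 (Fin n) // ¬ e.IsDiag} → ℝ) (hg : IsFracCover g (containFam n H))
    (p : ℝ) (hp0 : 0 ≤ p) (hcost : fracCost g p ≤ 1 / 2) :
    (H.IsAcyclic → IsSmall (containFam n H) (p / 1030000)) ∧
    (∀ D : ℕ, 1 ≤ D → (∀ v, (H.neighborSet v).ncard ≤ D) →
      IsSmall (containFam n H) (p / (324 * D))) :=
  ⟨fun hH => small_of_forest n H hH hV g hg p hp0 hcost,
    fun D hD0 hD => small_of_bddDegree n H hV D hD0 hD g hg p hp0 hcost⟩

end Vale.Agent.Results.P034.GraphContainment
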