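import Vale.Agent.Results.P034.BoundedDegree
import Vale.Agent.Results.P034.ClusterRounding
import Vale.Agent.Results.P034.GraphContainment

/-!
P034: the three independent special cases of Talagrand's conjecture proved in this folder, stated
together.  (1) fractional covers whose support has bounded degree; (2) fractional covers supported
on a family closed under unions of intersecting pairs with exponentially bounded growth;
(3) arbitrary fractional covers of the family of graphs containing a copy of `H`, for `H` a forest or a graph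
of bounded degree.
-/

open SimpleGraph

namespace Vale.Agent.Results.P034.AllResults

open Vale.Agent.Lib.P034

theorem result.{u, v} :
    (∀ (X : Type u) [Fintype X] [DecidableEq X] (D : ℕ), 1 ≤ D →
      ∀ (F : Finset (Finset X)) (g : Finset X → ℝ), IsFracCover g F →
      (∀ x : X, (Finset.univ.filter (fun S : Finset X => g S ≠ 0 ∧ x ∈ S)).card ≤ D) →
      ∀ p : ℝ, 0 ≤ p → p ≤ 1 → fracCost g p ≤ 1 / 2 →
      IsSmall F (p / (24 * (D : ℝ) ^ 2))) ∧
    (∀ (X : Type u) [Fintype X] [DecidableEq X] (F L : Finset (Finset X)) (B : ℝ), 0 < B →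
      (∀ R ∈ L, ∀ R' ∈ L, (R ∩ R').Nonempty → R ∪ R' ∈ L) →
      (∀ (x : X) (m : ℕ), ((L.filter (fun R => x ∈ R ∧ R.card = m)).card : ℝ) ≤ B ^ m) →
      ∀ g : Finset X → ℝ, IsFracCover g F → (∀ S, g S ≠ 0 → S ∈ L) →
      ∀ p : ℝ, 0 ≤ p → p ≤ 1 → fracCost g p ≤ 1 / 2 →
      IsSmall F (p / (6 * B))) ∧
    (∀ (n : ℕ) (V : Type v) [Fintype V] (H : SimpleGraph V), Fintype.card V ≤ n →
      ∀ g : Finset {e : Sym2 (Fin n) // ¬ e.IsDiag} → ℝ, IsFracCover g (containFam n H) →
      ∀ p : ℝ, 0 ≤ p → fracCost g p ≤ 1 / 2 →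
      (H.IsAcyclic → IsSmall (containFam n H) (p / 1030000)) ∧
      (∀ D : ℕ, 1 ≤ D → (∀ v, (H.neighborSet v).ncard ≤ D) →
        IsSmall (containFam n H) (p / (324 * D)))) :=
  ⟨fun _ _ _ D hD F g hg hdeg p hp0 hp1 hc =>
      BoundedDegree.result D hD F g hg hdeg p hp0 hp1 hc,
    fun _ _ _ F L B hB hu hgr g hg hs p hp0 hp1 hc =>
      ClusterRounding.result F L B hB hu hgr g hg hs p hp0 hp1 hc,
    fun n _ _ H hV g hg p hp0 hc => GraphContainment.result n H hV g hg p hp0 hc⟩

end Vale.Agent.Results.P034.AllResults
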