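import Vale.Agent.Lib.P034.Degree

/-!
P034, a special case of Talagrand's conjecture with an explicit constant.

If a fractional cover `g` of `F` has cost at most `1/2` at `p` and every point of the ground set
lies in at most `D` sets of nonzero weight (`D ≥ 1`), then `F` is `p / (24 D^2)`-small.
No bound on the sizes of the sets carrying weight is needed.
-/

namespace Vale.Agent.Results.P034.BoundedDegree

open Vale.Agent.Lib.P034

theorem result {X : Type*} [Fintype X] [DecidableEq X] (D : ℕ) (hD : 1 ≤ D)
    (F : Finset (Finset X)) (g : Finset X → ℝ) (hg : IsFracCover g F)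
    (hdeg : ∀ x : X, (Finset.univ.filter (fun S : Finset X => g S ≠ 0 ∧ x ∈ S)).card ≤ D)
    (p : ℝ) (hp0 : 0 ≤ p) (hp1 : p ≤ 1) (hcost : fracCost g p ≤ 1 / 2) :
    IsSmall F (p / (24 * (D : ℝ) ^ 2)) :=
  degree_main D hD F g hg hdeg p hp0 hp1 hcost

end Vale.Agent.Results.P034.BoundedDegree
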