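import Vale.Agent.Lib.P034.Connected

/-!
P034, a new special case of Talagrand's conjecture with an explicit constant.

Let `Γ` be a graph on `X` with all degrees at most `D` (`D ≥ 1`).  If a fractional cover `g` of `F`
is positive only on the empty set and on vertex sets inducing a connected subgraph of `Γ`, and has
cost at most `1/2` at `p`, then `F` is `p / (6 D^2)`-small.
-/

namespace Vale.Agent.Results.P034.ConnectedSupport

open Vale.Agent.Lib.P034

theorem result {X : Type*} [Fintype X] [DecidableEq X]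
    (Γ : SimpleGraph X) [DecidableRel Γ.Adj] (D : ℕ) (hD : 1 ≤ D) (hdeg : ∀ v, Γ.degree v ≤ D)
    (F : Finset (Finset X)) (g : Finset X → ℝ) (hg : IsFracCover g F)
    (hsupp : ∀ S, g S ≠ 0 → S = ∅ ∨ (Γ.induce (S : Set X)).Connected)
    (p : ℝ) (hp0 : 0 ≤ p) (hp1 : p ≤ 1) (hcost : fracCost g p ≤ 1 / 2) :
    IsSmall F (p / (6 * (D : ℝ) ^ 2)) :=
  connected_main Γ D hD hdeg F g hg hsupp p hp0 hp1 hcost

end Vale.Agent.Results.P034.ConnectedSupport
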